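import Crest.Agent.Lib.CStarPure.Pure

/-! States that are pure on a closed ⋆-subalgebra; killing nets; peak projections. -/

set_option autoImplicit false

open scoped ComplexOrder InnerProductSpace
open Filter Topology

namespace Crest.Agent.Lib.CStarPure

universe u

variable {A : Type*} [CStarAlgebra A]

namespace IsState
variable {f : A →L[ℂ] ℂ}

lemma map_mul_eq_zero (hf : IsState f) {a : A} (ha : nrm f a = 0) (y : A) : f (y * a) = 0 := by
  have := hf.norm_star_mul_le (star y) a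
  rw [star_star, ha, mul_zero] at this
  exact norm_le_zero_iff.mp this

lemma map_star_mul_eq_zero (hf : IsState f) {a : A} (ha : nrm f a = 0) (y : A) :
    f (star a * y) = 0 := by
  have := hf.norm_star_mul_le a y
  rw [ha, zero_mul] at this
  exact norm_le_zero_iff.mp this

lemma map_conj_of_nrm (hf : IsState f) {a : A} (ha : nrm f (a - 1) = 0) (y : A) :
    f (star a * y * a) = f y := by
  have h1 := hf.map_mul_eq_zero ha (star a * y)
  have h2 := hf.map_star_mul_eq_zero ha y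
  rw [mul_sub, map_sub, mul_one, sub_eq_zero] at h1
  rw [star_sub, sub_mul, map_sub, star_one, one_mul, sub_eq_zero] at h2
  rw [h1, h2]

lemma nrm_congr (hf : IsState f) {a b : A} (h : nrm f (a - b) = 0) : nrm f a = nrm f b := by
  apply le_antisymm
  · simpa [h] using hf.nrm_add_le (a - b) b
  · rw [hf.nrm_sub_rev] at h
    simpa [h] using hf.nrm_add_le (b - a) a

lemma nrm_mul_eq_zero (hf : IsState f) (x : A) {y : A} (h : nrm f y = 0) : nrm f (x * y) = 0 :=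
  le_antisymm (by simpa [h] using hf.nrm_mul_le x y) (nrm_nonneg _ _)

lemma nrm_proj (_hf : IsState f) {p : A} (hp : IsStarProjection p) : nrm f p = √(f p).re := by
  rw [nrm, hp.isSelfAdjoint.star_eq, hp.isIdempotentElem.eq]

lemma nrm_sub_one_of_proj (hf : IsState f) {p : A} (hp : IsStarProjection p) (h : f p = 1) :
    nrm f (p - 1) = 0 := by
  rw [hf.nrm_sub_rev, hf.nrm_proj hp.one_sub]
  simp [h, hf.map_one]

lemma map_conj_proj (hf : IsState f) {p : A} (hp : IsStarProjection p) (h : f p = 1) (y : A) :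
    f (p * y * p) = f y := by
  have := hf.map_conj_of_nrm (hf.nrm_sub_one_of_proj hp h) y
  rwa [hp.isSelfAdjoint.star_eq] at this

lemma norm_conj_le (hf : IsState f) (k y : A) : ‖f (star k * y * k)‖ ≤ ‖y‖ * nrm f k ^ 2 := by
  rw [mul_assoc]
  refine (hf.norm_star_mul_le _ _).trans ?_
  have := hf.nrm_mul_le y k
  have h0 := nrm_nonneg f k
  nlinarith

end IsState

/-- The normalised functional `y ↦ f (k⋆ y k)`. -/
noncomputable def conj (f : A →L[ℂ] ℂ) (k : A) : A →L[ℂ] ℂ :=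
  ((nrm f k ^ 2 : ℝ) : ℂ)⁻¹ • (f ∘L ContinuousLinearMap.mulLeftRight ℂ A (star k) k)

lemma conj_apply (f : A →L[ℂ] ℂ) (k y : A) :
    conj f k y = ((nrm f k ^ 2 : ℝ) : ℂ)⁻¹ * f (star k * y * k) := rfl

lemma IsState.conj {f : A →L[ℂ] ℂ} (hf : IsState f) {k : A} (hk : nrm f k ≠ 0) :
    IsState (conj f k) := by
  refine isState_of_pos (fun x => ?_) ?_
  · have : star k * (star x * x) * k = star (x * k) * (x * k) := by
      simp only [star_mul, mul_assoc]
    rw [conj_apply, this, ← hf.nrm_sq', ← Complex.ofReal_inv, ← Complex.ofReal_mul,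
      Complex.zero_le_real]
    positivity
  · rw [conj_apply, mul_one, ← hf.nrm_sq', inv_mul_cancel₀]
    exact_mod_cast pow_ne_zero 2 hk

lemma IsState.nrm_conj {f : A →L[ℂ] ℂ} (hf : IsState f) (k y : A) :
    nrm (CStarPure.conj f k) y = nrm f (y * k) / nrm f k := by
  have : star k * (star y * y) * k = star (y * k) * (y * k) := by
    simp only [star_mul, mul_assoc]
  rw [nrm, conj_apply, this, ← hf.nrm_sq', ← Complex.ofReal_inv, ← Complex.ofReal_mul,
    Complex.ofReal_re, inv_mul_eq_div, ← div_pow, Real.sqrt_sq]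
  exact div_nonneg (nrm_nonneg _ _) (nrm_nonneg _ _)

lemma tendsto_nrm {ι : Type*} {l : Filter ι} {f : ι → A →L[ℂ] ℂ} {g : A →L[ℂ] ℂ}
    (h : ∀ x, Tendsto (fun i => f i x) l (𝓝 (g x))) (y : A) :
    Tendsto (fun i => nrm (f i) y) l (𝓝 (nrm g y)) :=
  ((Complex.continuous_re.tendsto _).comp (h _)).sqrt

/-- `ω` is a state whose restriction to `B` is pure (left kernel form). -/
def BPure (B : StarSubalgebra ℂ A) (ω : A →L[ℂ] ℂ) : Prop :=
  IsState ω ∧ ∀ χ, IsState χ → (∀ y ∈ B, nrm ω y = 0 → nrm χ y = 0) → ∀ x ∈ B, χ x = ω x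

lemma nrm_congr_of_eqOn {B : StarSubalgebra ℂ A} {ω χ : A →L[ℂ] ℂ} (h : ∀ x ∈ B, χ x = ω x)
    {y : A} (hy : y ∈ B) : nrm χ y = nrm ω y := by
  rw [nrm, nrm, h _ (mul_mem (star_mem hy) hy)]

lemma BPure.congr {B : StarSubalgebra ℂ A} {ω χ : A →L[ℂ] ℂ} (hω : BPure B ω) (hχ : IsState χ)
    (h : ∀ x ∈ B, χ x = ω x) : BPure B χ :=
  ⟨hχ, fun ψ hψ hk x hx => (hω.2 ψ hψ (fun y hy h0 =>
    hk y hy ((nrm_congr_of_eqOn h hy).trans h0)) x hx).trans (h x hx).symm⟩

lemma BPure.isPure {B : StarSubalgebra ℂ A} [IsClosed (B : Set A)] {ω : A →L[ℂ] ℂ}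
    (hω : BPure B ω) : IsPure (restr B ω) := by
  refine isPure_of_eq_of_ker (hω.1.restr B) (fun χ hχ hk => ?_)
  obtain ⟨f, hf, hfe⟩ := exists_state_extend B hχ
  ext x
  rw [← hfe, restr_apply]
  refine hω.2 f hf (fun y hy h0 => ?_) x x.2
  have := hk ⟨y, hy⟩ h0
  rwa [nrm, ← hfe] at this

lemma IsPure.bpure_top {ω : A →L[ℂ] ℂ} (hω : IsPure ω) : BPure ⊤ ω :=
  ⟨hω.1, fun χ hχ h x _ => by rw [hω.eq_of_ker hχ (fun y => h y trivial)]⟩

lemma BPure.exists_small {B : StarSubalgebra ℂ A} [IsClosed (B : Set A)] {ω : A →L[ℂ] ℂ}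
    (hω : BPure B ω) {y : A} (hy : y ∈ B) :
    ∃ z ∈ B, nrm ω (y - z) = 0 ∧ ‖z‖ ≤ 4 * nrm ω y := by
  obtain ⟨z, h1, h2⟩ := hω.isPure.exists_small ⟨y, hy⟩
  exact ⟨z, z.2, h1, h2⟩

/-- A unit vector killed by a set of elements. -/
theorem exists_unit_killed {H : Type*} [NormedAddCommGroup H] [InnerProductSpace ℂ H]
    [CompleteSpace H] (π : A →⋆ₐ[ℂ] (H →L[ℂ] H)) (v : H) {ι : Type*} {l : Filter ι} (γ : ι → A)
    (hγ : ∀ i, ‖γ i‖ ≤ 1) (Y : Set A) (hY : ∀ y ∈ Y, Tendsto (fun i => ‖y * γ i‖) l (𝓝 0))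
    (hv : ¬ Tendsto (fun i => ⟪v, π (γ i) v⟫_ℂ) l (𝓝 0)) :
    ∃ η : H, ‖η‖ = 1 ∧ ∀ y ∈ Y, π y η = 0 := by
  let W : Submodule ℂ H :=
    { carrier := {u | Tendsto (fun i => ⟪u, π (γ i) v⟫_ℂ) l (𝓝 0)}
      add_mem' := fun {a b} ha hb => by
        simpa [inner_add_left] using Tendsto.add ha hb
      zero_mem' := by simpa using tendsto_const_nhds
      smul_mem' := fun c a ha => by
        simpa [inner_smul_left, mul_comm] using Tendsto.const_mul (starRingEnd ℂ c) ha }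
  have hW : IsClosed (W : Set H) := by
    apply isClosed_of_closure_subset
    intro u hu
    change Tendsto (fun i => ⟪u, π (γ i) v⟫_ℂ) l (𝓝 0)
    rw [Metric.tendsto_nhds]
    intro ε hε
    obtain ⟨w, hw, hd⟩ := Metric.mem_closure_iff.mp hu (ε / 2 / (‖v‖ + 1)) (by positivity)
    have hw' : Tendsto (fun i => ⟪w, π (γ i) v⟫_ℂ) l (𝓝 0) := hw
    filter_upwards [Metric.tendsto_nhds.mp hw' (ε / 2) (by positivity)] with i hi
    rw [dist_zero_right] at hi ⊢
    rw [dist_eq_norm, lt_div_iff₀ (by positivity)] at hd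
    have e : ⟪u, π (γ i) v⟫_ℂ = ⟪w, π (γ i) v⟫_ℂ + ⟪u - w, π (γ i) v⟫_ℂ := by
      rw [inner_sub_left]; ring
    have a1 := norm_inner_le_norm (𝕜 := ℂ) (u - w) (π (γ i) v)
    have a2 : ‖π (γ i) v‖ ≤ ‖v‖ := (norm_rep_apply_le π _ _).trans (by
      nlinarith [hγ i, norm_nonneg v])
    rw [e]
    refine (norm_add_le _ _).trans_lt ?_
    nlinarith [norm_nonneg (u - w)]
  have : CompleteSpace W := hW.completeSpace_coe
  have hne : Wᗮ ≠ ⊥ := by
    rw [Ne, Submodule.orthogonal_eq_bot_iff]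
    intro h
    have : v ∈ W := by rw [h]; trivial
    exact hv this
  obtain ⟨η, hη, h0⟩ := Submodule.exists_mem_ne_zero_of_ne_bot hne
  have hpos : 0 < ‖η‖ := norm_pos_iff.mpr h0
  refine ⟨((‖η‖⁻¹ : ℝ) : ℂ) • η, by simp [norm_smul, hpos.ne'], fun y hy => ?_⟩
  have : π y η = 0 := by
    apply ext_inner_left ℂ
    intro ζ
    rw [inner_zero_right, ← star_star y, ← inner_rep_left]
    refine hη _ ?_
    change Tendsto (fun i => ⟪π (star y) ζ, π (γ i) v⟫_ℂ) l (𝓝 0)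
    simp only [inner_rep_rep, star_star]
    rw [tendsto_zero_iff_norm_tendsto_zero]
    have := ((hY y hy).mul_const ‖v‖).const_mul ‖ζ‖
    simp only [zero_mul, mul_zero] at this
    refine squeeze_zero (fun _ => norm_nonneg _) (fun i => ?_) this
    refine (norm_inner_le_norm _ _).trans ?_
    gcongr
    exact norm_rep_apply_le _ _ _
  rw [map_smul, this, smul_zero]

/-- Two states pure on `C`, one of which is not killed by a killing net of the other, are
equivalent on `C`. -/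
theorem BPure.exists_equiv {C : StarSubalgebra ℂ A} [IsClosed (C : Set A)] {ω χ : A →L[ℂ] ℂ}
    (hω : BPure C ω) (hχ : BPure C χ) {ι : Type*} {l : Filter ι} {γ : ι → A}
    (hγC : ∀ i, γ i ∈ C) (hγ : ∀ i, ‖γ i‖ ≤ 1)
    (hk : ∀ y ∈ C, nrm ω y = 0 → Tendsto (fun i => ‖y * γ i‖) l (𝓝 0)) {x : A} (hx : x ∈ C)
    (hn : ¬ Tendsto (fun i => χ (star x * γ i * x)) l (𝓝 0)) :
    ∃ k ∈ C, ∃ z ∈ C, (∀ y ∈ C, ω (star z * y * z) = χ y) ∧ nrm ω (k * z - 1) = 0 := by
  obtain ⟨H, _, _, _, π, ξ, hd, hξ, h⟩ := hχ.isPure.1.exists_gns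
  have hirr := hχ.isPure.irred hd h
  obtain ⟨η, hη1, hη⟩ := exists_unit_killed π (π ⟨x, hx⟩ ξ) (l := l) (fun i => ⟨γ i, hγC i⟩) hγ
    {y | nrm ω y = 0} (fun y hy => hk y y.2 hy) (by
      intro h'
      apply hn
      refine h'.congr (fun i => ?_)
      rw [← rep_mul_apply, inner_rep_rep, ← h, ← mul_assoc]
      rfl)
  have e : vecFun π η η = restr C ω := hω.isPure.eq_of_ker (isState_vecFun π hη1) (fun y hy => by
    rw [nrm_eq_of_gns (f := vecFun π η η) (π := π) (fun _ => rfl), hη y hy, norm_zero])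
  obtain ⟨k, hk1, -⟩ := hirr.exists_lift hξ η
  obtain ⟨z, hz1, -⟩ := hirr.exists_lift hη1 ξ
  refine ⟨k, k.2, z, z.2, fun y hy => ?_, ?_⟩
  · have h1 := h ⟨y, hy⟩
    rw [← hz1, ← rep_mul_apply, inner_rep_rep, ← vecFun_apply, e, ← mul_assoc] at h1
    exact h1.symm
  · have : nrm (restr C ω) (k * z - 1) = 0 := by
      rw [← e, nrm_eq_of_gns (f := vecFun π η η) (π := π) (fun _ => rfl)]
      simp [hz1, hk1]
    exact this

theorem BPure.eq_zero_of_equiv {C : StarSubalgebra ℂ A} [IsClosed (C : Set A)]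
    {ω χ : A →L[ℂ] ℂ}
    (hω : BPure C ω) (hχ : BPure C χ) {ι : Type*} {l : Filter ι} {γ : ι → A}
    (hγC : ∀ i, γ i ∈ C) (hγ : ∀ i, ‖γ i‖ ≤ 1)
    (hk : ∀ y ∈ C, nrm ω y = 0 → Tendsto (fun i => ‖y * γ i‖) l (𝓝 0)) {x : A} (hx : x ∈ C)
    (hn : ¬ Tendsto (fun i => χ (star x * γ i * x)) l (𝓝 0)) {w : A}
    (hw : ∀ χ', IsState χ' → (∀ y ∈ C, χ' y = χ y) → ∀ k ∈ C, χ' (star k * w * k) = 0) :
    ω w = 0 := by
  obtain ⟨k, hkC, z, hzC, h1, h2⟩ := hω.exists_equiv hχ hγC hγ hk hx hn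
  have hz : nrm ω z = 1 := by
    have := h1 1 (one_mem _)
    rw [mul_one, hχ.1.map_one] at this
    simp [nrm, this]
  have := hw (conj ω z) (hω.1.conj (by simp [hz])) (fun y hy => by
    simp [conj_apply, hz, h1 y hy]) k hkC
  rw [conj_apply, hz] at this
  rw [← hω.1.map_conj_of_nrm h2 w]
  simpa [mul_assoc] using this

/-- Existence of a killing net. -/
theorem exists_kill {A : Type u} [CStarAlgebra A] [PartialOrder A] [StarOrderedRing A]
    (C : StarSubalgebra ℂ A) [IsClosed (C : Set A)] {ω : A →L[ℂ] ℂ} (hω : IsState ω) :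
    ∃ (ι : Type u) (l : Filter ι) (γ : ι → A), l.NeBot ∧
      (∀ i, γ i ∈ C ∧ 0 ≤ γ i ∧ γ i ≤ 1 ∧ nrm ω (γ i - 1) = 0) ∧
      (∀ y ∈ C, nrm ω y = 0 → Tendsto (fun i => ‖y * γ i‖) l (𝓝 0)) ∧
      ∀ i, ∀ᶠ j in l, γ j ≤ γ i := by
  let ι := {d : A // d ∈ C ∧ 0 ≤ d ∧ nrm ω d = 0}
  have : Nonempty ι := ⟨⟨0, zero_mem _, le_rfl, by simp [nrm]⟩⟩
  have : IsDirectedOrder ι := ⟨fun a b => ⟨⟨a.1 + b.1, add_mem a.2.1 b.2.1,
    add_nonneg a.2.2.1 b.2.2.1, le_antisymm (by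
      simpa [a.2.2.2, b.2.2.2] using hω.nrm_add_le a.1 b.1) (nrm_nonneg _ _)⟩,
    le_add_of_nonneg_right (a := a.1) b.2.2.1, le_add_of_nonneg_left (a := b.1) a.2.2.1⟩⟩
  let γ : ι → A := fun d => cfc (fun t : ℝ => (1 + t)⁻¹) d.1
  have hc : ∀ d : ι, ContinuousOn (fun t : ℝ => (1 + t)⁻¹) (spectrum ℝ d.1) := fun d =>
    ContinuousOn.inv₀ (by fun_prop) (fun t ht => by
      have := spectrum_nonneg_of_nonneg d.2.2.1 ht
      positivity)
  have hsa : ∀ d : ι, IsSelfAdjoint d.1 := fun d => IsSelfAdjoint.of_nonneg d.2.2.1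
  have e0 : ∀ d : ι, 1 + d.1 = cfc (fun t : ℝ => 1 + t) d.1 := fun d => by
    have := hsa d
    rw [cfc_add d.1 _ _, cfc_id' ℝ d.1, cfc_const_one ℝ d.1]
  have e1 : ∀ d : ι, γ d * (1 + d.1) = 1 := fun d => by
    have := hsa d
    rw [e0, ← cfc_mul _ _ d.1 (hc d), ← cfc_const_one ℝ d.1]
    refine cfc_congr (fun t ht => ?_)
    have := spectrum_nonneg_of_nonneg d.2.2.1 ht
    exact inv_mul_cancel₀ (by positivity)
  have e2 : ∀ d : ι, (1 + d.1) * γ d = 1 := fun d => by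
    have := hsa d
    rw [e0, ← cfc_mul _ _ d.1 (by fun_prop) (hc d), ← cfc_const_one ℝ d.1]
    refine cfc_congr (fun t ht => ?_)
    have := spectrum_nonneg_of_nonneg d.2.2.1 ht
    exact mul_inv_cancel₀ (by positivity)
  have hanti : ∀ d d' : ι, d ≤ d' → γ d' ≤ γ d := fun d d' h =>
    CStarAlgebra.inv_le_inv (a := ⟨1 + d.1, γ d, e2 d, e1 d⟩) (b := ⟨1 + d'.1, γ d', e2 d', e1 d'⟩)
      (add_nonneg zero_le_one d.2.2.1) (add_le_add_right (α := A) h 1)
  have h0 : ∀ d, 0 ≤ γ d := fun d => cfc_nonneg (fun t ht => by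
    have := spectrum_nonneg_of_nonneg d.2.2.1 ht
    positivity)
  have h1 : ∀ d, γ d ≤ 1 := fun d => cfc_le_one _ _ (fun t ht => by
    have := spectrum_nonneg_of_nonneg d.2.2.1 ht
    exact inv_le_one_of_one_le₀ (by linarith))
  refine ⟨ι, atTop, γ, inferInstance, fun d => ⟨cfc_mem (𝕜' := ℂ) _ d.2.1, h0 d, h1 d, ?_⟩,
    fun y hy hy0 => ?_, fun d => (eventually_ge_atTop d).mono (hanti d)⟩
  · have : γ d - 1 = (-γ d) * d.1 := by
      have := e1 d
      rw [mul_add, mul_one] at this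
      rw [← this]; noncomm_ring
    rw [this]
    exact hω.nrm_mul_eq_zero _ d.2.2.2
  · rw [Metric.tendsto_nhds]
    intro ε hε
    let d₀ : ι := ⟨(((ε / 2) ^ 2)⁻¹ : ℝ) • (star y * y), by
      rw [← Complex.coe_smul]
      exact SMulMemClass.smul_mem _ (mul_mem (star_mem hy) hy),
      smul_nonneg (by positivity) (star_mul_self_nonneg y), by
      rw [← Complex.coe_smul, hω.nrm_smul, hω.nrm_mul_eq_zero _ hy0, mul_zero]⟩
    filter_upwards [eventually_ge_atTop d₀] with d hd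
    rw [dist_zero_right, norm_norm]
    have hd' : (((ε / 2) ^ 2)⁻¹ : ℝ) • (star y * y) ≤ 1 + d.1 :=
      le_trans (α := A) hd (le_add_of_nonneg_left zero_le_one)
    have hγsa : IsSelfAdjoint (γ d) := IsSelfAdjoint.of_nonneg (h0 d)
    have h2 := hγsa.conjugate_le_conjugate hd'
    rw [e1, one_mul, mul_smul_comm, smul_mul_assoc] at h2
    have h3 : γ d * (star y * y) * γ d = star (y * γ d) * (y * γ d) := by
      simp only [star_mul, hγsa.star_eq, mul_assoc]
    rw [h3] at h2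
    have h4 := (CStarAlgebra.norm_le_one_iff_of_nonneg _
      (smul_nonneg (by positivity) (star_mul_self_nonneg _))).mpr (h2.trans (h1 d))
    rw [norm_smul, CStarRing.norm_star_mul_self, Real.norm_of_nonneg (by positivity),
      inv_mul_le_iff₀ (by positivity), mul_one, ← sq] at h4
    have := (pow_le_pow_iff_left₀ (norm_nonneg _) (by positivity) two_ne_zero).mp h4
    linarith

/-- The norm of a self-adjoint element is controlled by states. -/
theorem norm_le_of_states {h : A} (hh : IsSelfAdjoint h) {M : ℝ} (hM : 0 ≤ M)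
    (H : ∀ f : A →L[ℂ] ℂ, IsState f → ‖f h‖ ≤ M) : ‖h‖ ≤ M := by
  rcases subsingleton_or_nontrivial A with _ | _
  · simpa [Subsingleton.elim h 0]
  let _ := CStarAlgebra.spectralOrder A
  have _ := CStarAlgebra.spectralOrderedRing A
  have key : ∀ k : A, IsSelfAdjoint k → (∀ f : A →L[ℂ] ℂ, IsState f → ‖f k‖ ≤ M) →
      k ≤ algebraMap ℝ A M := by
    intro k hk H
    have h1 : 0 ≤ k + algebraMap ℝ A ‖k‖ := by
      have := IsSelfAdjoint.neg_algebraMap_norm_le_self hk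
      exact neg_le_iff_add_nonneg.mp this
    obtain ⟨f, hf, hf'⟩ := exists_state_norm h1
    have h2 : ‖k + algebraMap ℝ A ‖k‖‖ ≤ M + ‖k‖ := by
      have h3 := congrArg Complex.re hf'
      rw [map_add, Algebra.algebraMap_eq_smul_one, ← Complex.coe_smul, map_smul, hf.map_one] at h3
      simp only [smul_eq_mul, mul_one, Complex.add_re, Complex.ofReal_re, Complex.coe_smul] at h3
      rw [Algebra.algebraMap_eq_smul_one, ← h3]
      have := (Complex.re_le_norm _).trans (H f hf)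
      linarith
    rw [CStarAlgebra.norm_le_iff_le_algebraMap _ (by positivity) h1, map_add] at h2
    exact le_of_add_le_add_right h2
  have a1 := key h hh H
  have a2 := key (-h) hh.neg (fun f hf => by simpa using H f hf)
  rcases CStarAlgebra.norm_or_neg_norm_mem_spectrum hh with h3 | h3
  · exact (le_algebraMap_iff_spectrum_le (R := ℝ) hh).mp a1 _ h3
  · have h4 : ‖h‖ ∈ spectrum ℝ (-h) := by
      rw [← spectrum.neg_eq]; simpa using h3
    exact (le_algebraMap_iff_spectrum_le (R := ℝ) hh.neg).mp a2 _ h4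

theorem norm_le_two_of_states {x : A} {M : ℝ} (hM : 0 ≤ M)
    (H : ∀ f : A →L[ℂ] ℂ, IsState f → ‖f x‖ ≤ M) : ‖x‖ ≤ 2 * M := by
  have H' : ∀ f : A →L[ℂ] ℂ, IsState f → ‖f (star x)‖ ≤ M := fun f hf => by
    rw [hf.map_star, norm_star]; exact H f hf
  have h1 : ‖x + star x‖ ≤ 2 * M := norm_le_of_states (IsSelfAdjoint.add_star_self x)
    (by positivity) (fun f hf => by
      rw [map_add]
      exact (norm_add_le _ _).trans (by linarith [H f hf, H' f hf]))
  have h2 : ‖Complex.I • (x - star x)‖ ≤ 2 * M := norm_le_of_states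
    (by simp [IsSelfAdjoint, star_smul, smul_sub]; abel)
    (by positivity) (fun f hf => by
      rw [map_smul, map_sub, norm_smul, Complex.norm_I, one_mul]
      exact (norm_sub_le _ _).trans (by linarith [H f hf, H' f hf]))
  rw [norm_smul, Complex.norm_I, one_mul] at h2
  have h3 : (2 : ℂ) • x = (x + star x) + (x - star x) := by module
  have h4 := norm_add_le (x + star x) (x - star x)
  rw [← h3, norm_smul] at h4
  simp only [Complex.norm_ofNat] at h4
  linarith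

/-- A decreasing sequence of projections. -/
structure Nest (ρ : ℕ → A) : Prop where
  proj : ∀ N, IsStarProjection (ρ N)
  mul_of_le : ∀ {N M}, N ≤ M → ρ N * ρ M = ρ M

lemma Nest.mul_of_ge {ρ : ℕ → A} (hρ : Nest ρ) {N M : ℕ} (h : N ≤ M) : ρ M * ρ N = ρ M := by
  have := congrArg star (hρ.mul_of_le h)
  rwa [star_mul, (hρ.proj _).isSelfAdjoint.star_eq, (hρ.proj _).isSelfAdjoint.star_eq] at this

lemma Nest.map_eq_one {ρ : ℕ → A} (hρ : Nest ρ) {f : A →L[ℂ] ℂ} (hf : IsState f) {N M : ℕ}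
    (h : N ≤ M) (h1 : f (ρ M) = 1) : f (ρ N) = 1 := by
  rw [← hf.map_conj_proj (hρ.proj M) h1, hρ.mul_of_ge h, (hρ.proj M).isIdempotentElem.eq, h1]

lemma Nest.limit_state {ρ : ℕ → A} (hρ : Nest ρ) (U : Ultrafilter ℕ) (hU : (U : Filter ℕ) ≤ atTop)
    (f : ℕ → A →L[ℂ] ℂ) (hf : ∀ᶠ N in (U : Filter ℕ), IsState (f N) ∧ f N (ρ N) = 1) :
    ∃ g : A →L[ℂ] ℂ, IsState g ∧ (∀ N, g (ρ N) = 1) ∧
      ∀ x, Tendsto (fun i => f i x) U (𝓝 (g x)) := by
  obtain ⟨g, hg, hlim⟩ := exists_state_tendsto U f (hf.mono fun _ h => h.1)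
  refine ⟨g, hg, fun N => tendsto_nhds_unique (hlim _) (tendsto_const_nhds.congr' ?_), hlim⟩
  filter_upwards [hf, hU (eventually_ge_atTop N)] with M hM hNM
  exact (hρ.map_eq_one hM.1 hNM hM.2).symm

lemma IsState.conj_proj {f : A →L[ℂ] ℂ} (hf : IsState f) {p : A} (hp : IsStarProjection p)
    (h : nrm f p ≠ 0) : CStarPure.conj f p p = 1 := by
  have := (hf.conj h).map_one
  rw [conj_apply] at this ⊢
  rwa [mul_assoc, hp.isIdempotentElem.eq, ← mul_one (star p)]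

/-- A nest of nonzero projections has a peak state. -/
theorem Nest.exists_peak {ρ : ℕ → A} (hρ : Nest ρ) (h0 : ∀ N, ρ N ≠ 0) :
    ∃ g : A →L[ℂ] ℂ, IsState g ∧ ∀ N, g (ρ N) = 1 := by
  have : ∀ N, ∃ f : A →L[ℂ] ℂ, IsState f ∧ f (ρ N) = 1 := by
    intro N
    by_contra! hn
    apply h0 N
    rw [← norm_le_zero_iff]
    refine norm_le_of_states (hρ.proj N).isSelfAdjoint le_rfl (fun f hf => ?_)
    by_contra! h1
    have h2 : nrm f (ρ N) ≠ 0 := fun h => by
      have := hf.norm_le_nrm (ρ N)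
      linarith
    exact hn _ (hf.conj h2) (hf.conj_proj (hρ.proj N) h2)
  choose f hf using this
  obtain ⟨g, h1, h2, -⟩ := hρ.limit_state (hyperfilter ℕ) (Nat.hyperfilter_le_atTop) f
    (Eventually.of_forall hf)
  exact ⟨g, h1, h2⟩

/-- If all peak states of a nest vanish at `x` then the compressions of `x` tend to zero. -/
theorem Nest.tendsto_of_peak {ρ : ℕ → A} (hρ : Nest ρ) {x : A}
    (h : ∀ f : A →L[ℂ] ℂ, IsState f → (∀ N, f (ρ N) = 1) → f x = 0) :
    Tendsto (fun N => ‖ρ N * x * ρ N‖) atTop (𝓝 0) := by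
  rw [Metric.tendsto_nhds]
  by_contra! hn
  obtain ⟨ε, hε, hfr⟩ := hn
  have key : ∀ N, ε ≤ dist ‖ρ N * x * ρ N‖ 0 →
      ∃ f : A →L[ℂ] ℂ, (IsState f ∧ f (ρ N) = 1) ∧ ε / 4 ≤ ‖f x‖ := by
    intro N hN
    rw [dist_zero_right, norm_norm] at hN
    by_contra! hc
    have : ‖ρ N * x * ρ N‖ ≤ 2 * (ε / 4) := by
      refine norm_le_two_of_states (by positivity) (fun f hf => ?_)
      have hsa := (hρ.proj N).isSelfAdjoint.star_eq
      by_cases h2 : nrm f (ρ N) = 0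
      · rw [hf.map_mul_eq_zero h2, norm_zero]; positivity
      · have h3 := hc _ ⟨hf.conj h2, hf.conj_proj (hρ.proj N) h2⟩
        rw [conj_apply, hsa, norm_mul, norm_inv, Complex.norm_real,
          Real.norm_of_nonneg (by positivity), inv_mul_lt_iff₀ (by positivity)] at h3
        have h4 : nrm f (ρ N) ≤ 1 := (hf.nrm_le_norm _).trans (hρ.proj N).norm_le
        have h5 : nrm f (ρ N) ^ 2 ≤ 1 := by nlinarith [nrm_nonneg f (ρ N)]
        nlinarith
    linarith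
  choose! f hf using key
  obtain ⟨U, hU⟩ := Ultrafilter.exists_le (atTop ⊓ 𝓟 {N | ε ≤ dist ‖ρ N * x * ρ N‖ 0})
    (h := frequently_iff_neBot.mp hfr)
  have hU1 : (U : Filter ℕ) ≤ atTop := hU.trans inf_le_left
  have hU2 : ∀ᶠ N in (U : Filter ℕ), ε ≤ dist ‖ρ N * x * ρ N‖ 0 :=
    le_principal_iff.mp (hU.trans inf_le_right)
  obtain ⟨g, h1, h2, h3⟩ := hρ.limit_state U hU1 f (hU2.mono fun N hN => (hf N hN).1)
  have := ge_of_tendsto (h3 x).norm (hU2.mono fun N hN => (hf N hN).2)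
  rw [h g h1 h2, norm_zero] at this
  linarith

end Crest.Agent.Lib.CStarPure
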