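import Crest.Agent.Lib.CStarPure.Sub

/-! Faithful tracial states: norm lemma, centred elements, unique extension of pure states,
a ping-pong estimate. -/

set_option autoImplicit false

open scoped ComplexOrder InnerProductSpace
open Filter Topology

namespace Crest.Agent.Lib.CStarPure

variable {A : Type*} [CStarAlgebra A]

/-- A faithful tracial state. -/
structure IsTrace (τ : A →L[ℂ] ℂ) : Prop extends IsState τ where
  comm : ∀ x y, τ (x * y) = τ (y * x)
  faithful : ∀ x, nrm τ x = 0 → x = 0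

lemma le_of_forall_eps {X Y K : ℝ} (h : ∀ ε > 0, X ≤ Y + K * ε) : X ≤ Y := by
  have : Tendsto (fun ε : ℝ => Y + K * ε) (𝓝[>] 0) (𝓝 (Y + K * 0)) :=
    tendsto_nhdsWithin_of_tendsto_nhds (Continuous.tendsto (by fun_prop) _)
  rw [mul_zero, add_zero] at this
  exact ge_of_tendsto this (eventually_nhdsWithin_of_forall h)

lemma IsState.nrm_add_sq {f : A →L[ℂ] ℂ} (hf : IsState f) {w u : A} (h : f (star w * u) = 0) :
    nrm f (w + u) ^ 2 = nrm f w ^ 2 + nrm f u ^ 2 := by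
  have h' : f (star u * w) = 0 := by
    have := hf.map_star (star w * u)
    rwa [star_mul, star_star, h, star_zero] at this
  simp only [hf.nrm_sq, star_add, add_mul, mul_add, map_add, h, h', Complex.add_re]
  simp

namespace IsTrace
variable {τ : A →L[ℂ] ℂ}

lemma nrm_star (hτ : IsTrace τ) (x : A) : nrm τ (star x) = nrm τ x := by
  rw [nrm, nrm, star_star, hτ.comm]

lemma nrm_mul_le_right (hτ : IsTrace τ) (x y : A) : nrm τ (x * y) ≤ nrm τ x * ‖y‖ := by
  rw [← hτ.nrm_star, star_mul, mul_comm, ← hτ.nrm_star x, ← norm_star y]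
  exact hτ.nrm_mul_le _ _

lemma eq_zero_of_nonneg [PartialOrder A] [StarOrderedRing A] (hτ : IsTrace τ) {x : A}
    (hx : 0 ≤ x) (h : (τ x).re ≤ 0) : x = 0 := by
  obtain ⟨b, rfl⟩ := CStarAlgebra.nonneg_iff_eq_star_mul_self.mp hx
  rw [hτ.faithful b (by rw [nrm, Real.sqrt_eq_zero_of_nonpos h]), mul_zero]

lemma nonneg_of [PartialOrder A] [StarOrderedRing A] (hτ : IsTrace τ) (C : StarSubalgebra ℂ A)
    [IsClosed (C : Set A)] {h : A} (hC : h ∈ C) (hh : IsSelfAdjoint h)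
    (H : ∀ c ∈ C, 0 ≤ (τ (star c * h * c)).re) : 0 ≤ h := by
  let g : ℝ → ℝ := fun t => max (-t) 0
  have hg : IsSelfAdjoint (cfc g h) := cfc_predicate g h
  have h1 := H (cfc g h) (cfc_mem (𝕜' := ℂ) _ hC)
  have e : star (cfc g h) * h * cfc g h = -cfc (fun t => g t ^ 3) h := by
    rw [hg.star_eq, ← cfc_neg]
    nth_rewrite 2 [← cfc_id' ℝ h]
    rw [← cfc_mul _ _ h, ← cfc_mul _ _ h]
    refine cfc_congr (fun t _ => ?_)
    simp only [g]
    rcases le_total (-t) 0 with h | h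
    · simp [max_eq_right h]
    · rw [max_eq_left h]; ring
  rw [e, map_neg, Complex.neg_re, neg_nonneg] at h1
  have h2 := hτ.eq_zero_of_nonneg (cfc_nonneg (fun t _ => by positivity)) h1
  have h3 := eqOn_of_cfc_eq_cfc (f := fun t => g t ^ 3) (g := 0) (a := h) (by rw [h2, cfc_zero])
    (by fun_prop) continuousOn_const hh
  rw [StarOrderedRing.nonneg_iff_spectrum_nonneg (R := ℝ) h hh]
  intro t ht
  have h4 : g t = 0 := pow_eq_zero_iff (three_ne_zero) |>.mp (h3 ht)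
  have := le_max_left (-t) 0
  simp only [g] at h4
  linarith

lemma re_conj_algebraMap (hτ : IsTrace τ) (c : A) (r : ℝ) :
    (τ (star c * algebraMap ℝ A r * c)).re = r * nrm τ c ^ 2 := by
  rw [Algebra.algebraMap_eq_smul_one, mul_smul_comm, mul_one, smul_mul_assoc, ← Complex.coe_smul,
    map_smul, hτ.nrm_sq, smul_eq_mul, Complex.re_ofReal_mul]

lemma re_conj_star_mul (hτ : IsTrace τ) (c z : A) :
    (τ (star c * (star z * z) * c)).re = nrm τ (z * c) ^ 2 := by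
  rw [hτ.nrm_sq]; simp only [star_mul, mul_assoc]

/-- The norm of an element of a closed subalgebra is its norm on the `L²` space of the
subalgebra. -/
theorem norm_le_of_nrm (hτ : IsTrace τ) (C : StarSubalgebra ℂ A) [IsClosed (C : Set A)] {z : A}
    (hz : z ∈ C) {M : ℝ} (hM : 0 ≤ M) (H : ∀ c ∈ C, nrm τ (z * c) ≤ M * nrm τ c) : ‖z‖ ≤ M := by
  let _ := CStarAlgebra.spectralOrder A
  have _ := CStarAlgebra.spectralOrderedRing A
  have h1 : 0 ≤ algebraMap ℝ A (M ^ 2) - star z * z := by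
    refine hτ.nonneg_of C (sub_mem ?_ (mul_mem (star_mem hz) hz)) ?_ (fun c hc => ?_)
    · rw [Algebra.algebraMap_eq_smul_one, ← Complex.coe_smul]
      exact SMulMemClass.smul_mem _ (one_mem _)
    · exact (IsSelfAdjoint.algebraMap A (.all _)).sub (IsSelfAdjoint.star_mul_self z)
    · rw [mul_sub, sub_mul, map_sub, Complex.sub_re, hτ.re_conj_algebraMap, hτ.re_conj_star_mul,
        sub_nonneg, ← mul_pow]
      have := nrm_nonneg τ (z * c)
      gcongr
      exact H c hc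
  rw [sub_nonneg, ← CStarAlgebra.norm_le_iff_le_algebraMap _ (by positivity)
    (_root_.star_mul_self_nonneg z), CStarRing.norm_star_mul_self, ← sq] at h1
  exact (pow_le_pow_iff_left₀ (norm_nonneg _) hM two_ne_zero).mp h1

/-- An element bounded below in `L²` is invertible. -/
theorem isUnit_of_nrm (hτ : IsTrace τ) {S : A} {ε : ℝ} (hε : 0 < ε)
    (H : ∀ c, ε * nrm τ c ≤ nrm τ (S * c)) : IsUnit S := by
  let _ := CStarAlgebra.spectralOrder A
  have _ := CStarAlgebra.spectralOrderedRing A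
  have : IsClosed ((⊤ : StarSubalgebra ℂ A) : Set A) := isClosed_univ
  have h1 : 0 ≤ star S * S - algebraMap ℝ A (ε ^ 2) := by
    refine hτ.nonneg_of ⊤ trivial ?_ (fun c _ => ?_)
    · exact (IsSelfAdjoint.star_mul_self S).sub (IsSelfAdjoint.algebraMap A (.all _))
    · rw [mul_sub, sub_mul, map_sub, Complex.sub_re, hτ.re_conj_algebraMap, hτ.re_conj_star_mul,
        sub_nonneg, ← mul_pow]
      have := nrm_nonneg τ c
      gcongr
      exact H c
  have h2 : IsUnit (star S * S) := by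
    refine CStarAlgebra.isUnit_of_le (algebraMap ℝ A (ε ^ 2)) (sub_nonneg.mp h1) ?_
    exact isStrictlyPositive_algebraMap (by positivity)
  obtain ⟨U, hU⟩ := h2
  set T : A := (↑U⁻¹ : A) * star S with hT
  have hTS : T * S = 1 := by rw [hT, mul_assoc, ← hU, U.inv_mul]
  have hUsa : star (↑U⁻¹ : A) = ↑U⁻¹ := by
    have : star U = U := Units.ext (by
      rw [Units.coe_star, hU]; exact (IsSelfAdjoint.star_mul_self S).star_eq)
    rw [← Units.coe_star, star_inv, this]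
  have hP : star (1 - S * T) * (1 - S * T) = 1 - S * T := by
    have : star (S * T) = S * T := by
      simp only [hT, star_mul, star_star, hUsa, mul_assoc]
    rw [star_sub, star_one, this]
    have : S * T * (S * T) = S * T := by rw [mul_assoc, ← mul_assoc T, hTS, one_mul]
    noncomm_ring [this]
  have h3 : 1 - S * T = 0 := hτ.faithful _ (by
    rw [nrm, hP, map_sub, hτ.comm, hTS]; simp)
  exact ⟨⟨S, T, (sub_eq_zero.mp h3).symm, hTS⟩, rfl⟩

end IsTrace

/-- Elements orthogonal to a set with respect to `τ`. -/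
def Cen (τ : A →L[ℂ] ℂ) (B : Set A) : Submodule ℂ A where
  carrier := {x | ∀ y ∈ B, τ (y * x) = 0}
  add_mem' := fun {a b} ha hb y hy => by rw [mul_add, map_add, ha y hy, hb y hy, add_zero]
  zero_mem' := fun y _ => by simp
  smul_mem' := fun c x hx y hy => by rw [mul_smul_comm, map_smul, hx y hy, smul_zero]

lemma mem_Cen {τ : A →L[ℂ] ℂ} {B : Set A} {x : A} : x ∈ Cen τ B ↔ ∀ y ∈ B, τ (y * x) = 0 :=
  Iff.rfl

lemma isClosed_Cen (τ : A →L[ℂ] ℂ) (B : Set A) : IsClosed (Cen τ B : Set A) := by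
  have : (Cen τ B : Set A) = ⋂ y ∈ B, {x | τ (y * x) = 0} := by
    ext x; simp [mem_Cen]
  rw [this]
  exact isClosed_biInter fun y _ => isClosed_eq (by fun_prop) continuous_const

lemma Cen_anti (τ : A →L[ℂ] ℂ) {B C : Set A} (h : B ⊆ C) : Cen τ C ≤ Cen τ B :=
  fun _ hx y hy => hx y (h hy)

namespace IsTrace
variable {τ : A →L[ℂ] ℂ} {B C D : StarSubalgebra ℂ A}

lemma cen_mul_mul (hτ : IsTrace τ) {x a b : A} (hx : x ∈ Cen τ B) (ha : a ∈ B) (hb : b ∈ B) :
    a * x * b ∈ Cen τ B := fun y hy => by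
  rw [← mul_assoc, hτ.comm, ← mul_assoc, ← mul_assoc]
  exact hx _ (mul_mem (mul_mem hb hy) ha)

lemma cen_star (hτ : IsTrace τ) {x : A} (hx : x ∈ Cen τ B) : star x ∈ Cen τ B := fun y hy => by
  have := hτ.map_star (x * star y)
  rw [star_mul, star_star, hτ.comm x, hx _ (star_mem hy), star_zero] at this
  exact this

lemma norm_le_of_cen (hτ : IsTrace τ) [IsClosed (B : Set A)] {x b : A} (hb : b ∈ B)
    (h : x - b ∈ Cen τ B) : ‖b‖ ≤ ‖x‖ := by
  refine hτ.norm_le_of_nrm B hb (norm_nonneg _) (fun c hc => ?_)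
  have h1 : τ (star (b * c) * (b * c)) = τ (star (b * c) * (x * c)) := by
    have := hτ.cen_mul_mul h (one_mem B) hc _ (star_mem (mul_mem hb hc))
    rw [one_mul, sub_mul, mul_sub, map_sub, sub_eq_zero] at this
    exact this.symm
  have h2 : nrm τ (b * c) ^ 2 ≤ nrm τ (b * c) * (‖x‖ * nrm τ c) := by
    rw [hτ.nrm_sq, h1]
    refine (Complex.re_le_norm _).trans ((hτ.norm_star_mul_le _ _).trans ?_)
    have := nrm_nonneg τ (b * c)
    gcongr
    exact hτ.nrm_mul_le _ _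
  rcases (nrm_nonneg τ (b * c)).eq_or_lt with h0 | h0
  · rw [← h0]; exact mul_nonneg (norm_nonneg _) (nrm_nonneg _ _)
  · nlinarith

lemma eq_zero_of_cen (hτ : IsTrace τ) {b : A} (hb : b ∈ B) (h : b ∈ Cen τ B) : b = 0 :=
  hτ.faithful b (by rw [nrm, h _ (star_mem hb)]; simp)

lemma isClosed_split (hτ : IsTrace τ) [hB : IsClosed (B : Set A)] {W : Submodule ℂ A}
    (hW : IsClosed (W : Set A)) (hWB : W ≤ Cen τ B) : IsClosed {x | ∃ b ∈ B, x - b ∈ W} := by
  apply IsSeqClosed.isClosed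
  intro x y hx hy
  choose b hb hbW using hx
  have hc : CauchySeq b := by
    have := hy.cauchySeq
    rw [Metric.cauchySeq_iff] at this ⊢
    intro ε hε
    obtain ⟨N, hN⟩ := this ε hε
    refine ⟨N, fun m hm n hn => lt_of_le_of_lt ?_ (hN m hm n hn)⟩
    rw [dist_eq_norm, dist_eq_norm]
    refine hτ.norm_le_of_cen (sub_mem (hb m) (hb n)) (hWB ?_)
    have := W.sub_mem (hbW m) (hbW n)
    convert this using 1
    abel
  obtain ⟨b', hb'⟩ := cauchySeq_tendsto_of_complete hc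
  exact ⟨b', hB.mem_of_tendsto hb' (Eventually.of_forall hb),
    hW.mem_of_tendsto (hy.sub hb') (Eventually.of_forall hbW)⟩

end IsTrace

/-- Elements orthogonal to `B` and killed by all states that are pure on `B`. -/
def Null (τ : A →L[ℂ] ℂ) (B : StarSubalgebra ℂ A) : Submodule ℂ A where
  carrier := {x | x ∈ Cen τ B ∧ ∀ ω, BPure B ω → ω x = 0}
  add_mem' := fun {a b} ha hb => ⟨add_mem ha.1 hb.1, fun ω hω => by
    rw [map_add, ha.2 ω hω, hb.2 ω hω, add_zero]⟩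
  zero_mem' := ⟨zero_mem _, fun ω _ => map_zero ω⟩
  smul_mem' := fun c x hx => ⟨Submodule.smul_mem _ c hx.1, fun ω hω => by
    rw [map_smul, hx.2 ω hω, smul_zero]⟩

lemma isClosed_Null (τ : A →L[ℂ] ℂ) (B : StarSubalgebra ℂ A) : IsClosed (Null τ B : Set A) := by
  have : (Null τ B : Set A) = (Cen τ B : Set A) ∩ ⋂ ω ∈ {ω | BPure B ω}, {x | ω x = 0} := by
    ext x
    simp only [Set.mem_inter_iff, Set.mem_iInter]
    rfl
  rw [this]
  exact (isClosed_Cen τ B).inter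
    (isClosed_biInter fun ω _ => isClosed_eq (by fun_prop) continuous_const)

/-- The set of elements that split over `B` and at which pure states of `B` extend uniquely. -/
def Good (τ : A →L[ℂ] ℂ) (B : StarSubalgebra ℂ A) : Set A := {x | ∃ b ∈ B, x - b ∈ Null τ B}

lemma IsTrace.isClosed_Good {τ : A →L[ℂ] ℂ} (hτ : IsTrace τ) (B : StarSubalgebra ℂ A)
    [IsClosed (B : Set A)] : IsClosed (Good τ B) :=
  hτ.isClosed_split (isClosed_Null τ B) (fun _ hx => hx.1)

/-- Unique extension of pure states from `B` to `C`, with a conditional expectation. -/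
def Ext (τ : A →L[ℂ] ℂ) (B C : StarSubalgebra ℂ A) : Prop := (C : Set A) ⊆ Good τ B

namespace Ext
variable {τ : A →L[ℂ] ℂ} {B C D : StarSubalgebra ℂ A}

lemma of_le (h : C ≤ B) : Ext τ B C := fun x hx => ⟨x, h hx, by simp⟩

lemma mono (h : Ext τ B C) (hD : D ≤ C) : Ext τ B D := fun _ hx => h (hD hx)

lemma eq_zero (hτ : IsTrace τ) (h : Ext τ B C) {x : A} (hx : x ∈ C) (hxB : x ∈ Cen τ B)
    {ω : A →L[ℂ] ℂ} (hω : BPure B ω) : ω x = 0 := by
  obtain ⟨b, hb, h1⟩ := h hx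
  have : b = 0 := hτ.eq_zero_of_cen hb (by simpa using sub_mem hxB h1.1)
  rw [this, sub_zero] at h1
  exact h1.2 ω hω

lemma eqOn (h : Ext τ B C) {ω χ : A →L[ℂ] ℂ} (hω : BPure B ω) (hχ : IsState χ)
    (he : ∀ x ∈ B, χ x = ω x) {x : A} (hx : x ∈ C) : χ x = ω x := by
  obtain ⟨b, hb, h1⟩ := h hx
  have h2 := h1.2 ω hω
  have h3 := h1.2 χ (hω.congr hχ he)
  rw [map_sub, sub_eq_zero] at h2 h3
  rw [h2, h3, he b hb]

lemma bpure (h : Ext τ B C) (hBC : B ≤ C) {ω : A →L[ℂ] ℂ} (hω : BPure B ω) : BPure C ω :=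
  ⟨hω.1, fun χ hχ hk _ hx => h.eqOn hω hχ (hω.2 χ hχ fun y hy => hk y (hBC hy)) hx⟩

lemma trans (h₁ : Ext τ B C) (hBC : B ≤ C) (h₂ : Ext τ C D) : Ext τ B D := by
  intro x hx
  obtain ⟨c, hc, h1⟩ := h₂ hx
  obtain ⟨b, hb, h2⟩ := h₁ hc
  refine ⟨b, hb, ?_⟩
  have : x - b = (x - c) + (c - b) := by abel
  rw [this]
  exact add_mem ⟨Cen_anti τ hBC h1.1, fun ω hω => h1.2 ω (h₁.bpure hBC hω)⟩ h2

end Ext

/-- Ping-pong estimate. -/
theorem IsTrace.pingpong {τ : A →L[ℂ] ℂ} (hτ : IsTrace τ) (C : StarSubalgebra ℂ A)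
    [IsClosed (C : Set A)] {y R y' : A} (hy : y ∈ C) (hR : R ∈ C) (hy' : y' ∈ C)
    (W W' U' : Set A) (orth : ∀ w ∈ W', ∀ u ∈ U', τ (star w * u) = 0)
    (dense : ∀ c ∈ C, c ∈ closure {x | ∃ w ∈ W', ∃ u ∈ U', x = w + u})
    (hRU : ∀ u ∈ U', R * u ∈ W) {a a' : ℝ} (h0 : 0 ≤ a) (h0' : 0 ≤ a')
    (ha : ∀ w ∈ W, nrm τ (y * w) ≤ a * nrm τ w)
    (ha' : ∀ w ∈ W', nrm τ (star y' * w) ≤ a' * nrm τ w) :
    ‖y * R * y'‖ ≤ a * ‖R‖ * ‖y'‖ + a' * ‖y‖ * ‖R‖ := by
  refine hτ.norm_le_of_nrm C (mul_mem (mul_mem hy hR) hy') (by positivity) (fun c hc => ?_)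
  refine le_of_forall_eps (K := 2 * ‖y‖ * ‖R‖ + a * ‖R‖) (fun ε hε => ?_)
  obtain ⟨_, ⟨w, hw, u, hu, rfl⟩, hd⟩ :=
    Metric.mem_closure_iff.mp (dense _ (mul_mem hy' hc)) ε hε
  rw [dist_eq_norm] at hd
  have hd' : nrm τ (y' * c - (w + u)) ≤ ε := (hτ.nrm_le_norm _).trans hd.le
  have p := hτ.nrm_add_sq (orth w hw u hu)
  have n1 := nrm_nonneg τ w
  have n2 := nrm_nonneg τ u
  have n3 := nrm_nonneg τ c
  have b1 : nrm τ (w + u) ≤ ‖y'‖ * nrm τ c + ε := by
    have := hτ.nrm_sub_le (y' * c) (y' * c - (w + u))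
    rw [sub_sub_cancel] at this
    linarith [hτ.nrm_mul_le y' c]
  have b2 : nrm τ u ≤ ‖y'‖ * nrm τ c + ε := by
    refine le_trans ?_ b1
    refine (pow_le_pow_iff_left₀ n2 (nrm_nonneg _ _) two_ne_zero).mp ?_
    nlinarith
  have b3 : nrm τ w ≤ a' * nrm τ c + ε := by
    have e : τ (star w * w) = τ (star (star y' * w) * c) - τ (star w * (y' * c - (w + u))) := by
      rw [star_mul, star_star, mul_sub, mul_add, map_sub, map_add, orth w hw u hu, mul_assoc]
      ring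
    have e1 : nrm τ w ^ 2 ≤ nrm τ w * (a' * nrm τ c + ε) := by
      rw [hτ.nrm_sq, e]
      refine (Complex.re_le_norm _).trans ((norm_sub_le _ _).trans ?_)
      have c1 := hτ.norm_star_mul_le (star y' * w) c
      have c2 := hτ.norm_star_mul_le w (y' * c - (w + u))
      have c3 := ha' w hw
      nlinarith [mul_le_mul_of_nonneg_right c3 n3, mul_le_mul_of_nonneg_left hd' n1]
    rcases n1.eq_or_lt with h | h
    · rw [← h]; positivity
    · nlinarith
  have e : y * R * y' * c = y * R * w + y * (R * u) + y * R * (y' * c - (w + u)) := by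
    noncomm_ring
  rw [e]
  have hyR : ‖y * R‖ ≤ ‖y‖ * ‖R‖ := norm_mul_le _ _
  have d1 : nrm τ (y * R * w) ≤ ‖y‖ * ‖R‖ * (a' * nrm τ c + ε) :=
    (hτ.nrm_mul_le _ _).trans (by gcongr)
  have d2 : nrm τ (y * (R * u)) ≤ a * (‖R‖ * (‖y'‖ * nrm τ c + ε)) :=
    (ha _ (hRU u hu)).trans (by
      gcongr
      exact (hτ.nrm_mul_le _ _).trans (by gcongr))
  have d3 : nrm τ (y * R * (y' * c - (w + u))) ≤ ‖y‖ * ‖R‖ * ε :=
    (hτ.nrm_mul_le _ _).trans (by
      have := nrm_nonneg τ (y' * c - (w + u))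
      gcongr)
  have := hτ.nrm_add_le (y * R * w + y * (R * u)) (y * R * (y' * c - (w + u)))
  have := hτ.nrm_add_le (y * R * w) (y * (R * u))
  nlinarith

/-- `B` has idempotents of small trace not killed by a given state. -/
def Small (τ : A →L[ℂ] ℂ) (B : StarSubalgebra ℂ A) : Prop :=
  ∀ ε > 0, ∀ ω, IsState ω → ∃ e ∈ B, e * e = e ∧ nrm ω e ≠ 0 ∧ nrm τ e < ε

lemma Small.mono {τ : A →L[ℂ] ℂ} {B C : StarSubalgebra ℂ A} (h : Small τ B) (hBC : B ≤ C) :
    Small τ C := fun ε hε ω hω => by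
  obtain ⟨e, he, h'⟩ := h ε hε ω hω
  exact ⟨e, hBC he, h'⟩

/-- A net concentrating on a pure state tends to zero in `L²`. -/
theorem IsTrace.tendsto_nrm_zero {τ : A →L[ℂ] ℂ} (hτ : IsTrace τ) {B : StarSubalgebra ℂ A}
    [IsClosed (B : Set A)] (hB : Small τ B) {ω : A →L[ℂ] ℂ} (hω : BPure B ω) {ι : Type*}
    {l : Filter ι} {γ : ι → A} (hγ : ∀ i, ‖γ i‖ ≤ 1) (Y : Set A)
    (hY : ∀ y ∈ Y, Tendsto (fun i => ‖y * γ i‖) l (𝓝 0))
    (hU : ∀ χ, IsState χ → (∀ y ∈ Y, nrm χ y = 0) → ∀ x ∈ B, χ x = ω x) :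
    Tendsto (fun i => nrm τ (γ i)) l (𝓝 0) := by
  rw [Metric.tendsto_nhds]
  by_contra! hn
  obtain ⟨δ, hδ, hfr⟩ := hn
  obtain ⟨U, hU0⟩ := Ultrafilter.exists_le (l ⊓ 𝓟 {i | δ ≤ dist (nrm τ (γ i)) 0})
    (h := frequently_iff_neBot.mp hfr)
  have hU1 : (U : Filter ι) ≤ l := hU0.trans inf_le_left
  have hU2 : ∀ᶠ i in (U : Filter ι), δ ≤ nrm τ (γ i) := by
    have : ∀ᶠ i in (U : Filter ι), δ ≤ dist (nrm τ (γ i)) 0 :=
      le_principal_iff.mp (hU0.trans inf_le_right)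
    refine this.mono fun i hi => ?_
    rwa [dist_zero_right, Real.norm_of_nonneg (nrm_nonneg _ _)] at hi
  obtain ⟨χ, hχ, hlim⟩ := exists_state_tendsto U (fun i => conj τ (γ i))
    (hU2.mono fun i hi => hτ.conj (by linarith))
  have hχω := hU χ hχ (fun y hy => by
    refine le_antisymm ?_ (nrm_nonneg _ _)
    have h1 := ((hY y hy).div_const δ).mono_left hU1
    rw [zero_div] at h1
    refine le_of_tendsto_of_tendsto (tendsto_nrm hlim y) h1 (hU2.mono fun i hi => ?_)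
    simp only [hτ.nrm_conj]
    gcongr
    exact hτ.nrm_le_norm _)
  have hle : ∀ y ∈ B, nrm ω y ≤ nrm τ y / δ := fun y hy => by
    rw [← nrm_congr_of_eqOn hχω hy]
    refine le_of_tendsto (tendsto_nrm hlim y) (hU2.mono fun i hi => ?_)
    simp only [hτ.nrm_conj]
    have := nrm_nonneg τ y
    gcongr
    exact (hτ.nrm_mul_le_right _ _).trans (by nlinarith [hγ i])
  obtain ⟨e, he, hee, h0, hs⟩ := hB (δ / 4) (by positivity) ω hω.1
  obtain ⟨z, hz, h1, h2⟩ := hω.exists_small he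
  have h3 : nrm ω e = nrm ω (e * z) := by
    apply hω.1.nrm_congr
    have : e - e * z = e * (e - z) := by rw [mul_sub, hee]
    rw [this]
    exact hω.1.nrm_mul_eq_zero _ h1
  have h4 := hle _ (mul_mem he hz)
  have h5 := hτ.nrm_mul_le_right e z
  have hpos : 0 < nrm ω e := (nrm_nonneg _ _).lt_of_ne' h0
  rw [← h3, le_div_iff₀ hδ] at h4
  have h6 : nrm τ e * ‖z‖ ≤ nrm τ e * (4 * nrm ω e) := by
    have := nrm_nonneg τ e
    gcongr
  nlinarith

end Crest.Agent.Lib.CStarPure
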